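import Vale.Agent.P037.Final

/-!
The polynomial removal conjecture for ordered binary matrices is false.
-/

namespace Vale.Agent.Results.P037.Disproof

open Vale.Agent.P037

/-- It is not the case that every binary square pattern has the polynomial removal property. -/
theorem result :
    ¬ ∀ k : ℕ, 1 ≤ k → ∀ H : Fin k → Fin k → Bool, HasPolynomialRemoval H :=
  fun h => not_hasPolynomialRemoval (h 17 (by norm_num) pattern)

end Vale.Agent.Results.P037.Disproof
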