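import Vale.Agent.P037.Final

/-!
The polynomial removal conjecture for ordered binary matrices fails exponentially.
-/

namespace Vale.Agent.Results.P037.ExpBound

open Vale.Agent.P037

/-- There is a `17 × 17` pattern without polynomial removal; moreover for every small `ε` and
all large `n` there is an `n × n` binary matrix at distance at least `ε` from pattern-free with
at most `exp (-(log 2 / 20) / √ε) n ^ 34` ordered copies of the pattern. -/
theorem result :
    ∃ H : Fin 17 → Fin 17 → Bool, ¬ HasPolynomialRemoval H ∧
      ∀ ε : ℝ, 0 < ε → ε ≤ 1 / 9216 → ∃ n₀ : ℕ, ∀ n : ℕ, n₀ ≤ n →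
        ∃ A : Fin n → Fin n → Bool, ε ≤ distFree H A ∧
          (numCopies H A : ℝ) ≤
            Real.exp (-(Real.log 2 / 20) / Real.sqrt ε) * (n : ℝ) ^ (2 * 17) :=
  ⟨pattern, not_hasPolynomialRemoval, exp_bound⟩

end Vale.Agent.Results.P037.ExpBound
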